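import Vale.Agent.P323.H610.UDefs
import Vale.Agent.P323.H151.FCTw

/-!
# Imaginaries of a tower are coded by pseudogroups (uncoloured version)
-/

namespace Vale.Agent.P323.U

open CategoryTheory Vale.Agent.P323.Z

variable {D : Type 1} [Category.{1} D]

section base

variable [TwBase D]

theorem cancel {x y z : D} {u v : x ⟶ y} (f : y ⟶ z) (h : u ≫ f = v ≫ f) : u = v :=
  (TwBase.mono f).right_cancellation _ _ h

end base

section amal

variable [Tw D]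

/-- every span has an amalgam whose square is a pullback -/
theorem exists_am {z x y : D} (l : z ⟶ x) (r : z ⟶ y) :
    ∃ (w : D) (j₁ : x ⟶ w) (j₂ : y ⟶ w), IsPB l r j₁ j₂ := by
  obtain ⟨i, hi⟩ := TwBase.mem_ex l
  obtain ⟨j, hj⟩ := TwBase.mem_ex r
  have hl := TwBase.mem_mono (le_max_left i j) hi
  have hr := TwBase.mem_mono (le_max_right i j) hj
  exact ⟨_, _, _, Tw.K1 (max i j) l r hl hr⟩

end amal

namespace NEq

variable {b : D} (E : NEq b)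

theorem rfl' {x : D} (e : b ⟶ x) : E.rel e e := (E.equiv x).refl e

theorem symm' {x : D} {e e' : b ⟶ x} (h : E.rel e e') : E.rel e' e := (E.equiv x).symm h

theorem trans' {x : D} {e e' e'' : b ⟶ x} (h : E.rel e e') (h' : E.rel e' e'') : E.rel e e'' :=
  (E.equiv x).trans h h'

theorem push {x y : D} (w : x ⟶ y) {e e' : b ⟶ x} (h : E.rel e e') : E.rel (e ≫ w) (e' ≫ w) :=
  (E.nat w e e').2 h

theorem pop {x y : D} (w : x ⟶ y) {e e' : b ⟶ x} (h : E.rel (e ≫ w) (e' ≫ w)) : E.rel e e' :=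
  (E.nat w e e').1 h

/-- STEP 1: the pullback of two equivalent embeddings is in the filter. -/
theorem step1 [Tw D] {x d : D} {u v : b ⟶ x} {s t : d ⟶ b} (huv : E.rel u v)
    (hpb : IsPB s t u v) : E.EE s := by
  intro w e₁ e₂ he
  obtain ⟨i₁, h₁⟩ := TwBase.mem_ex s
  obtain ⟨i₂, h₂⟩ := TwBase.mem_ex t
  obtain ⟨i₃, h₃⟩ := TwBase.mem_ex u
  obtain ⟨i₄, h₄⟩ := TwBase.mem_ex v
  obtain ⟨i₅, h₅⟩ := TwBase.mem_ex e₁
  obtain ⟨i₆, h₆⟩ := TwBase.mem_ex e₂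
  let i := i₁ ⊔ i₂ ⊔ i₃ ⊔ i₄ ⊔ i₅ ⊔ i₆
  have hs : Mem i s := TwBase.mem_mono (by simp [i]) h₁
  have ht : Mem i t := TwBase.mem_mono (by simp [i]) h₂
  have hu : Mem i u := TwBase.mem_mono (by simp [i]) h₃
  have hv : Mem i v := TwBase.mem_mono (by simp [i]) h₄
  have he₁ : Mem i e₁ := TwBase.mem_mono (by simp [i]) h₅
  have he₂ : Mem i e₂ := TwBase.mem_mono (by simp [i]) h₆
  have hb : Mem i (𝟙 b) := TwBase.mem_tgt hs
  have hd : Mem i (𝟙 d) := TwBase.mem_src hs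
  have hse : Mem i (s ≫ e₁) := TwBase.mem_comp hs he₁
  obtain ⟨φ₁, h1, h2⟩ := Tw.K2 i (s ≫ e₁) s s s hse hs hs hs e₁ (𝟙 d) (𝟙 b) he₁ hd hb
    ⟨by rw [Category.id_comp], fun p q hpq => ⟨q, by
      have : p = q ≫ s := cancel e₁ (by rw [hpq, Category.assoc])
      rw [this], Category.comp_id _⟩⟩
    ⟨by rw [Category.id_comp, Category.comp_id], fun p q hpq => ⟨q, by
      rw [← hpq, Category.comp_id], Category.comp_id _⟩⟩
  obtain ⟨φ₂, h3, h4⟩ := Tw.K2 i (s ≫ e₁) s s s hse hs hs hs e₂ (𝟙 d) (𝟙 b) he₂ hd hb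
    ⟨by rw [Category.id_comp, he], fun p q hpq => ⟨q, by
      have : p = q ≫ s := cancel e₂ (by rw [hpq, Category.assoc, he])
      rw [this], Category.comp_id _⟩⟩
    ⟨by rw [Category.id_comp, Category.comp_id], fun p q hpq => ⟨q, by
      rw [← hpq, Category.comp_id], Category.comp_id _⟩⟩
  obtain ⟨ψ, h5, h6⟩ := Tw.K2 i v v s s hv hv hs hs u t u hu ht hu hpb hpb
  have key : E.rel (Tw.jl i s s hs hs) (Tw.jr i s s hs hs) := by
    apply E.pop ψ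
    rw [h5.1, h6.1]
    have h7 : E.rel (u ≫ Tw.jl i v v hv hv) (v ≫ Tw.jl i v v hv hv) := E.push _ huv
    have h8 : E.rel (u ≫ Tw.jr i v v hv hv) (v ≫ Tw.jr i v v hv hv) := E.push _ huv
    rw [Tw.K0 i v v hv hv] at h7
    exact E.trans' h7 (E.symm' h8)
  have k1 := E.push φ₁ key
  have k2 := E.push φ₂ key
  rw [h1.1, h2.1, Category.id_comp] at k1
  rw [h3.1, h4.1, Category.id_comp] at k2
  exact E.pop _ (E.trans' k1 (E.symm' k2))

theorem step1' [Tw D] {x d : D} {u v : b ⟶ x} {s t : d ⟶ b} (huv : E.rel u v)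
    (hpb : IsPB s t u v) : E.EE t :=
  fun {_} e e' h => E.step1 (E.symm' huv) hpb.symm e e' h

theorem EE_one : E.EE (𝟙 b) := by
  intro x e e' h
  rw [Category.id_comp, Category.id_comp] at h
  rw [h]
  exact E.rfl' _

theorem EE_up {x y : D} {f : x ⟶ b} {g : y ⟶ b} (h : Thru f g) (hf : E.EE f) : E.EE g := by
  obtain ⟨k, rfl⟩ := h
  intro x e e' h
  apply hf
  rw [Category.assoc, Category.assoc, h]

theorem EE_inter [Tw D] {x y z : D} {f : x ⟶ b} {g : y ⟶ b} {p : z ⟶ x} {q : z ⟶ y}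
    (hpb : IsPB p q f g) (hf : E.EE f) (hg : E.EE g) : E.EE (p ≫ f) := by
  obtain ⟨S₁, l₁, l₂, hl⟩ := exists_am f f
  obtain ⟨S₂, m₁, m₂, hm⟩ := exists_am g g
  obtain ⟨X, n₁, n₂, hn⟩ := exists_am l₂ m₁
  have r1 : E.rel (l₁ ≫ n₁) (l₂ ≫ n₁) := E.push _ (hf _ _ hl.1)
  have r2 : E.rel (m₁ ≫ n₂) (m₂ ≫ n₂) := E.push _ (hg _ _ hm.1)
  rw [hn.1] at r1
  have r3 := E.trans' r1 r2
  suffices hP : IsPB (p ≫ f) (p ≫ f) (l₁ ≫ n₁) (m₂ ≫ n₂) from
    fun {_} e e' h => E.step1 r3 hP e e' h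
  refine ⟨?_, ?_⟩
  · have e1 : f ≫ l₁ ≫ n₁ = f ≫ m₁ ≫ n₂ := by
      rw [← Category.assoc, hl.1, Category.assoc, hn.1]
    have e2 : g ≫ m₁ ≫ n₂ = g ≫ m₂ ≫ n₂ := by
      rw [← Category.assoc, hm.1, Category.assoc]
    rw [Category.assoc, e1, ← Category.assoc, hpb.1, Category.assoc, e2, ← Category.assoc]
  · intro c w₁ w₂ h
    obtain ⟨k, k1, k2⟩ := hn.2 (w₁ ≫ l₁) (w₂ ≫ m₂) (by
      rw [Category.assoc, h, Category.assoc])
    obtain ⟨k', k3, k4⟩ := hl.2 w₁ k k1.symm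
    obtain ⟨k'', k5, k6⟩ := hm.2 k w₂ k2
    obtain ⟨o, o1, o2⟩ := hpb.2 k' k'' (by rw [k4, k5])
    refine ⟨o, ?_, ?_⟩
    · rw [← Category.assoc, o1, k3]
    · rw [← Category.assoc, o1, k4, ← k5, k6]

/-- DECISION -/
theorem dec [Tw D] {d : D} {s t : d ⟶ b} (hs : E.EE s) (ht : E.EE t) {x : D} {e₁ e₂ : b ⟶ x}
    (he : s ≫ e₁ = t ≫ e₂) (hr : E.rel e₁ e₂) {y : D} {f₁ f₂ : b ⟶ y} (hf : s ≫ f₁ = t ≫ f₂) :
    E.rel f₁ f₂ := by
  obtain ⟨V, j, j', hj⟩ := exists_am (s ≫ e₁) (s ≫ f₁)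
  have h1 : E.rel (e₁ ≫ j) (f₁ ≫ j') := hs _ _ (by
    rw [← Category.assoc, hj.1, Category.assoc])
  have h2 : E.rel (e₂ ≫ j) (f₂ ≫ j') := ht _ _ (by
    rw [← Category.assoc, ← he, hj.1, hf, Category.assoc])
  exact E.pop j' (E.trans' (E.symm' h1) (E.trans' (E.push j hr) h2))

/-- TRANSPORT -/
theorem transport [Tw D] {d c x : D} {s t : d ⟶ b} {e₁ e₂ : b ⟶ x} (he : s ≫ e₁ = t ≫ e₂)
    (hr : E.rel e₁ e₂) (u : c ⟶ d) (hu : E.EE (u ≫ t)) : E.EE (u ≫ s) := by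
  obtain ⟨V, j₁, j₂, hj⟩ := exists_am (u ≫ t ≫ e₂) (u ≫ t)
  have h1 : E.rel (e₂ ≫ j₁) j₂ := hu _ _ (by
    have := hj.1
    simp only [Category.assoc] at this ⊢
    exact this)
  have h2 : E.rel (e₁ ≫ j₁) j₂ := E.trans' (E.push _ hr) h1
  suffices hP : IsPB (u ≫ s) (u ≫ t) (e₁ ≫ j₁) j₂ from
    fun {_} e e' h => E.step1 h2 hP e e' h
  refine ⟨?_, ?_⟩
  · rw [← hj.1, ← he]
    simp only [Category.assoc]
  · intro w w₁ w₂ hw
    obtain ⟨k, k1, k2⟩ := hj.2 (w₁ ≫ e₁) w₂ (by rw [Category.assoc, hw])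
    refine ⟨k, cancel e₁ ?_, k2⟩
    rw [← k1, ← he]
    simp only [Category.assoc]

theorem transport' [Tw D] {d c x : D} {s t : d ⟶ b} {e₁ e₂ : b ⟶ x} (he : s ≫ e₁ = t ≫ e₂)
    (hr : E.rel e₁ e₂) (u : c ⟶ d) (hu : E.EE (u ≫ s)) : E.EE (u ≫ t) :=
  fun {_} e e' h => E.transport he.symm (E.symm' hr) u hu e e' h

/-- the pseudogroup of an imaginary at stage `j` -/
def pg [Tw D] (j : Ordinal.{0}) (hb : Mem j (𝟙 b)) : PG D j b where
  rel := fun {d} s t => Mem j s ∧ Mem j t ∧ E.EE s ∧ E.EE t ∧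
    ∀ {x : D} (e e' : b ⟶ x), s ≫ e = t ≫ e' → E.rel e e'
  mem h := ⟨h.1, h.2.1⟩
  one := ⟨hb, hb, E.EE_one, E.EE_one, fun e e' h => E.EE_one _ _ h⟩
  symm h := ⟨h.2.1, h.1, h.2.2.2.1, h.2.2.1, fun e e' h' => E.symm' (h.2.2.2.2 _ _ h'.symm)⟩
  comp := by
    rintro d d' c s t s' t' g g' ⟨hs, ht, Es, Et, hst⟩ ⟨hs', ht', Es', Et', hst'⟩ hpb hg hg'
    obtain ⟨X₁, x₁, x₂, hx⟩ := exists_am s t
    obtain ⟨X₂, y₁, y₂, hy⟩ := exists_am s' t'
    obtain ⟨X, n₁, n₂, hn⟩ := exists_am x₂ y₁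
    have r1 : E.rel (x₁ ≫ n₁) (x₂ ≫ n₁) := E.push _ (hst _ _ hx.1)
    have r2 : E.rel (y₁ ≫ n₂) (y₂ ≫ n₂) := E.push _ (hst' _ _ hy.1)
    rw [hn.1] at r1
    have r3 := E.trans' r1 r2
    have hP : IsPB (g ≫ s) (g' ≫ t') (x₁ ≫ n₁) (y₂ ≫ n₂) := by
      refine ⟨?_, ?_⟩
      · have e1 : s ≫ x₁ ≫ n₁ = t ≫ y₁ ≫ n₂ := by
          rw [← Category.assoc, hx.1, Category.assoc, hn.1]
        have e2 : s' ≫ y₁ ≫ n₂ = t' ≫ y₂ ≫ n₂ := by
          rw [← Category.assoc, hy.1, Category.assoc]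
        rw [Category.assoc, e1, ← Category.assoc, hpb.1, Category.assoc, e2, ← Category.assoc]
      · intro w w₁ w₂ h
        obtain ⟨k, k1, k2⟩ := hn.2 (w₁ ≫ x₁) (w₂ ≫ y₂) (by
          rw [Category.assoc, h, Category.assoc])
        obtain ⟨k', k3, k4⟩ := hx.2 w₁ k k1.symm
        obtain ⟨k'', k5, k6⟩ := hy.2 k w₂ k2
        obtain ⟨o, o1, o2⟩ := hpb.2 k' k'' (by rw [k4, k5])
        refine ⟨o, ?_, ?_⟩
        · rw [← Category.assoc, o1, k3]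
        · rw [← Category.assoc, o2, k6]
    have E1 : E.EE (g ≫ s) := fun {_} e e' h => E.step1 r3 hP e e' h
    have E2 : E.EE (g' ≫ t') := fun {_} e e' h => E.step1' r3 hP e e' h
    exact ⟨TwBase.mem_comp hg hs, TwBase.mem_comp hg' ht', E1, E2,
      fun e e' h => E.dec E1 E2 hP.1 r3 h⟩
  up := by
    rintro d c s t g hs ht hg ⟨-, -, h1, h2, h3⟩
    refine ⟨hs, ht, E.EE_up (thru_comp_self g s) h1, E.EE_up (thru_comp_self g t) h2,
      fun e e' h => h3 _ _ ?_⟩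
    rw [Category.assoc, h, Category.assoc]

/-- THEOREM 9, the nontrivial direction -/
theorem exists_pg [Tw D] {i : Ordinal.{0}} (hb : Mem i (𝟙 b))
    (hFC : ∀ {x : D} (f : x ⟶ b), E.EE f → ∃ (y : D) (e : y ⟶ b), E.EE e ∧ Mem i e ∧ Thru e f)
    {x : D} {e e' : b ⟶ x} (hr : E.rel e e') :
    ∃ (d : D) (s t : d ⟶ b), (E.pg i hb).rel s t ∧ s ≫ e = t ≫ e' := by
  -- reduction
  have red : ∀ K : Ordinal.{0}, ∀ {d : D} (s t : d ⟶ b), Mem i s → E.EE s → E.EE t →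
      s ≫ e = t ≫ e' → Mem K t → ∃ (d : D) (s t : d ⟶ b), Mem i s ∧ Mem i t ∧ E.EE s ∧ E.EE t ∧
        s ≫ e = t ≫ e' := by
    intro K
    induction K using WellFoundedLT.induction with
    | ind K ih =>
      intro d s t hs Es Et hst ht
      by_cases hle : K ≤ i
      · exact ⟨d, s, t, hs, TwBase.mem_mono hle ht, Es, Et, hst⟩
      rw [not_le] at hle
      rcases Ordinal.zero_or_succ_or_isSuccLimit K with h0 | ⟨k, hk⟩ | hl
      · exfalso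
        rw [h0] at hle
        exact absurd hle (not_lt.2 zero_le)
      · have hkK : k + 1 = K := hk
        subst hkK
        have hik : i ≤ k := Order.lt_succ_iff.1 hle
        by_cases hkt : Mem k t
        · exact ih k (Order.lt_succ k) s t hs Es Et hst hkt
        obtain ⟨N⟩ := Tw.nd t (TwBase.mem_mono hik hb) ht hkt
        obtain ⟨y, f, hf, hfm, u, hu⟩ := hFC t Et
        have h1 : Thru u N.π := N.N0 u (by rw [hu]; exact TwBase.mem_mono hik hfm)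
        have h2 : E.EE (N.π ≫ t) := by
          obtain ⟨u', hu'⟩ := h1
          refine E.EE_up ⟨u', ?_⟩ hf
          rw [← Category.assoc, hu', hu]
        have h3 : E.EE (N.π ≫ s) := fun {_} e e' h => E.transport hst hr N.π h2 e e' h
        obtain ⟨y', f', hf', hfm', v, hv⟩ := hFC (N.π ≫ s) h3
        have hsk : Mem k (N.π ≫ s) := TwBase.mem_comp N.hπ (TwBase.mem_mono hik hs)
        have hvk : Mem k v := TwBase.mem_div (by rw [hv]; exact TwBase.mem_mono hik hfm') hsk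
        have h4 : E.EE ((v ≫ N.π) ≫ s) := by rw [Category.assoc, hv]; exact hf'
        have h5 : E.EE ((v ≫ N.π) ≫ t) :=
          fun {_} e e' h => E.transport' hst hr (v ≫ N.π) h4 e e' h
        refine ih k (Order.lt_succ k) ((v ≫ N.π) ≫ s) ((v ≫ N.π) ≫ t) ?_ h4 h5 ?_ ?_
        · rw [Category.assoc, hv]; exact hfm'
        · rw [Category.assoc, hst, ← Category.assoc]
        · rw [Category.assoc, N.eq]
          refine TwBase.mem_comp hvk (TwBase.mem_comp N.hπ' (TwBase.mem_comp ?_ N.hA))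
          exact TwBase.mem_mono zero_le (TwBase.ι_mem N.n)
      · obtain ⟨j, hj, hjt⟩ := TwBase.mem_lim hl ht
        exact ih j hj s t hs Es Et hst hjt
  obtain ⟨i₁, h₁⟩ := TwBase.mem_ex e
  obtain ⟨i₂, h₂⟩ := TwBase.mem_ex e'
  obtain ⟨z, p, q, -, -, hpq⟩ := TwBase.pb (TwBase.mem_mono (le_max_left i₁ i₂) h₁)
    (TwBase.mem_mono (le_max_right i₁ i₂) h₂)
  have Ep : E.EE p := fun {_} e e' h => E.step1 hr hpq e e' h
  obtain ⟨y, f, hf, hfm, u, hu⟩ := hFC p Ep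
  have h1 : E.EE (u ≫ p) := by rw [hu]; exact hf
  have h2 : E.EE (u ≫ q) := fun {_} e e' h => E.transport' hpq.1 hr u h1 e e' h
  obtain ⟨K, hK⟩ := TwBase.mem_ex (u ≫ q)
  obtain ⟨d, s, t, hs, ht, Es, Et, hst⟩ := red K (u ≫ p) (u ≫ q) (by rw [hu]; exact hfm) h1 h2
    (by rw [Category.assoc, hpq.1, Category.assoc]) hK
  exact ⟨d, s, t, ⟨hs, ht, Es, Et, fun f f' h => E.dec Es Et hst hr h⟩, hst⟩

end NEq

/-- **Imaginaries are coded.** -/
theorem coded [Tw D] : Coded D := by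
  intro b E
  obtain ⟨i, hi, h⟩ := H151.fc (fun x (f : x ⟶ b) => E.EE f) E.EE_one
    (fun h hf => E.EE_up h hf) (fun hpb hf hg => E.EE_inter hpb hf hg)
  refine ⟨i, fun j hj => ⟨E.pg j (TwBase.mem_mono hj hi), ?_⟩⟩
  intro x e e'
  constructor
  · intro hr
    exact E.exists_pg (TwBase.mem_mono hj hi) (fun f hf => h j hj f hf) hr
  · rintro ⟨d, s, t, hst, he⟩
    exact hst.2.2.2.2 e e' he

/-- If the imaginary determines `γ ≫ e`, then `γ` is invariant. -/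
theorem Codes.inv [Tw D] {b c : D} {E : NEq b} {j : Ordinal.{0}} {P : PG D j b} (hP : Codes E P)
    (γ : c ⟶ b) (hγ : ∀ {x : D} (e e' : b ⟶ x), E.rel e e' → γ ≫ e = γ ≫ e')
    {d : D} {s t : d ⟶ b} (hst : P.rel s t) : ∃ v : c ⟶ d, v ≫ s = γ ∧ v ≫ t = γ := by
  obtain ⟨V, l₁, l₂, hl⟩ := exists_am s t
  exact hl.2 γ γ (hγ _ _ ((hP _ _).2 ⟨d, s, t, hst, hl.1⟩))

end Vale.Agent.P323.U
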